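import Vale.Agent.Lib.P166.Defs

/-!
# P166: the standing assumptions of the problem on the spectra
-/

namespace Vale.Agent.Lib.P166

open MeasureTheory Filter Topology

/-- The standing assumptions of the problem on the deterministic spectra `lam N` (`N ≥ 1`) and the
limit law `μ`: the empirical measures `N⁻¹ ∑ δ_{lam N i}` converge weakly to `μ` (tested against
bounded continuous functions), and the smallest and largest eigenvalues converge to
`min supp μ` and `max supp μ`. -/
def Admissible (μ : Measure ℝ) (lam : ∀ N : ℕ, Fin N → ℝ) : Prop :=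
  (∀ f : ℝ → ℝ, Continuous f → (∃ C : ℝ, ∀ x, |f x| ≤ C) →
    Tendsto (fun N : ℕ => (∑ i, f (lam N i)) / (N : ℝ)) atTop (𝓝 (∫ x, f x ∂μ))) ∧
  Tendsto (fun N : ℕ => ⨅ i, lam N i) atTop (𝓝 (sInf μ.support)) ∧
  Tendsto (fun N : ℕ => ⨆ i, lam N i) atTop (𝓝 (sSup μ.support))

end Vale.Agent.Lib.P166
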