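import Vale.Agent.Lib.P166.Defs

/-!
# P166: basic properties of the pressure (convexity, monotonicity, permutation invariance)
-/

namespace Vale.Agent.Lib.P166

open Matrix MeasureTheory Finset

variable {N : ℕ}

lemma quad_eq (lam : Fin N → ℝ) (U : Matrix (Fin N) (Fin N) ℝ) (v : Fin N → ℝ) :
    v ⬝ᵥ (coupling lam U *ᵥ v) = ∑ k, lam k * ((U *ᵥ v) k) ^ 2 := by
  unfold coupling
  rw [← Matrix.mulVec_mulVec, ← Matrix.mulVec_mulVec, Matrix.dotProduct_mulVec,
    Matrix.vecMul_transpose]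
  simp only [dotProduct, Matrix.mulVec_diagonal]
  refine Finset.sum_congr rfl fun k _ => ?_
  ring

lemma norm_sq_mulVec (U : Matrix.orthogonalGroup (Fin N) ℝ) (v : Fin N → ℝ) :
    ∑ k, ((U.1 *ᵥ v) k) ^ 2 = ∑ k, (v k) ^ 2 := by
  have h : U.1ᵀ * U.1 = 1 := (Matrix.mem_orthogonalGroup_iff' (A := U.1)).1 U.2
  have h1 : (U.1 *ᵥ v) ⬝ᵥ (U.1 *ᵥ v) = v ⬝ᵥ v := by
    rw [Matrix.dotProduct_mulVec, ← Matrix.vecMul_transpose, Matrix.vecMul_vecMul, h,
      Matrix.vecMul_one]
  simpa [dotProduct, sq] using h1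

lemma spin_sq (s : Fin N → Bool) (k : Fin N) : (spin s k) ^ 2 = 1 := by
  unfold spin
  split_ifs <;> norm_num

lemma sum_sq_spin (U : Matrix.orthogonalGroup (Fin N) ℝ) (s : Fin N → Bool) :
    ∑ k, ((U.1 *ᵥ spin s) k) ^ 2 = N := by
  rw [norm_sq_mulVec]
  simp [spin_sq]

/-- The partition function written in the eigenbasis. -/
noncomputable def Z (β : ℝ) (lam : Fin N → ℝ) (U : Matrix (Fin N) (Fin N) ℝ) : ℝ :=
  ∑ s : Fin N → Bool, Real.exp (β / 2 * ∑ k, lam k * ((U *ᵥ spin s) k) ^ 2)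

lemma Z_pos (β : ℝ) (lam : Fin N → ℝ) (U : Matrix (Fin N) (Fin N) ℝ) : 0 < Z β lam U :=
  Finset.sum_pos (fun _ _ => Real.exp_pos _) Finset.univ_nonempty

lemma pressure_eq (β : ℝ) (lam : Fin N → ℝ) (U : Matrix (Fin N) (Fin N) ℝ) :
    pressure β lam U = (1 / (N : ℝ)) * (Real.log ((2 : ℝ)⁻¹ ^ N) + Real.log (Z β lam U)) := by
  unfold pressure
  simp only [quad_eq]
  rw [← Real.log_mul (by positivity) (Z_pos β lam U).ne']
  rfl

/-- Jensen's inequality for log-sum-exp. -/
lemma log_sum_exp_jensen {ι S : Type} [Fintype ι] [Fintype S] [Nonempty S] (w : ι → ℝ)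
    (hw0 : ∀ p, 0 ≤ w p) (hw1 : ∑ p, w p = 1) (x : ι → S → ℝ) :
    Real.log (∑ s, Real.exp (∑ p, w p * x p s)) ≤ ∑ p, w p * Real.log (∑ s, Real.exp (x p s)) := by
  set L : ι → ℝ := fun p => Real.log (∑ s, Real.exp (x p s)) with hL
  have hpos : ∀ p, 0 < ∑ s, Real.exp (x p s) := fun p =>
    Finset.sum_pos (fun _ _ => Real.exp_pos _) Finset.univ_nonempty
  have h1 : ∀ s, Real.exp (∑ p, w p * (x p s - L p)) ≤ ∑ p, w p * Real.exp (x p s - L p) := by
    intro s
    have := convexOn_exp.map_sum_le (t := Finset.univ) (w := w) (p := fun p => x p s - L p)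
      (fun p _ => hw0 p) hw1 (fun p _ => Set.mem_univ _)
    simpa [smul_eq_mul] using this
  have h2 : ∑ s, Real.exp (∑ p, w p * (x p s - L p)) ≤ 1 := by
    calc ∑ s, Real.exp (∑ p, w p * (x p s - L p))
        ≤ ∑ s, ∑ p, w p * Real.exp (x p s - L p) := Finset.sum_le_sum fun s _ => h1 s
      _ = ∑ p, w p * ∑ s, Real.exp (x p s - L p) := by
          rw [Finset.sum_comm]
          simp only [Finset.mul_sum]
      _ = ∑ p, w p * 1 := by
          refine Finset.sum_congr rfl fun p _ => ?_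
          congr 1
          simp only [Real.exp_sub, hL, Real.exp_log (hpos p)]
          rw [← Finset.sum_div, div_self (hpos p).ne']
      _ = 1 := by simp [hw1]
  have h3 : ∑ s, Real.exp (∑ p, w p * (x p s - L p))
      = (∑ s, Real.exp (∑ p, w p * x p s)) * Real.exp (-∑ p, w p * L p) := by
    rw [Finset.sum_mul]
    refine Finset.sum_congr rfl fun s _ => ?_
    rw [← Real.exp_add]
    congr 1
    simp only [mul_sub, Finset.sum_sub_distrib]
    ring
  rw [h3] at h2
  have hpos' : 0 < ∑ s, Real.exp (∑ p, w p * x p s) :=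
    Finset.sum_pos (fun _ _ => Real.exp_pos _) Finset.univ_nonempty
  have h4 : ∑ s, Real.exp (∑ p, w p * x p s) ≤ Real.exp (∑ p, w p * L p) := by
    have := mul_le_mul_of_nonneg_right h2 (Real.exp_pos (∑ p, w p * L p)).le
    rw [mul_assoc, ← Real.exp_add, neg_add_cancel, Real.exp_zero, mul_one, one_mul] at this
    exact this
  calc Real.log (∑ s, Real.exp (∑ p, w p * x p s))
      ≤ Real.log (Real.exp (∑ p, w p * L p)) := Real.log_le_log hpos' h4
    _ = ∑ p, w p * L p := Real.log_exp _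

/-- Convexity of the pressure in the spectrum (Jensen form). -/
lemma pressure_jensen {ι : Type} [Fintype ι] (w : ι → ℝ) (hw0 : ∀ p, 0 ≤ w p)
    (hw1 : ∑ p, w p = 1) (β : ℝ) (lam : ι → Fin N → ℝ) (U : Matrix (Fin N) (Fin N) ℝ) :
    pressure β (fun k => ∑ p, w p * lam p k) U ≤ ∑ p, w p * pressure β (lam p) U := by
  simp only [pressure_eq]
  have h1 : Real.log (Z β (fun k => ∑ p, w p * lam p k) U) ≤ ∑ p, w p * Real.log (Z β (lam p) U) := by
    have := log_sum_exp_jensen w hw0 hw1
      (fun p (s : Fin N → Bool) => β / 2 * ∑ k, lam p k * ((U *ᵥ spin s) k) ^ 2)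
    refine le_trans (le_of_eq ?_) this
    unfold Z
    congr 1
    refine Finset.sum_congr rfl fun s _ => ?_
    congr 1
    simp only [Finset.mul_sum, Finset.sum_mul]
    rw [Finset.sum_comm]
    refine Finset.sum_congr rfl fun p _ => Finset.sum_congr rfl fun k _ => ?_
    ring
  have h2 : ∑ p, w p * (1 / (N : ℝ) * (Real.log ((2 : ℝ)⁻¹ ^ N) + Real.log (Z β (lam p) U)))
      = 1 / (N : ℝ) * (Real.log ((2 : ℝ)⁻¹ ^ N) + ∑ p, w p * Real.log (Z β (lam p) U)) := by
    calc ∑ p, w p * (1 / (N : ℝ) * (Real.log ((2 : ℝ)⁻¹ ^ N) + Real.log (Z β (lam p) U)))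
        = ∑ p, (1 / (N : ℝ) * (w p * Real.log ((2 : ℝ)⁻¹ ^ N))
            + 1 / (N : ℝ) * (w p * Real.log (Z β (lam p) U))) := by
          refine Finset.sum_congr rfl fun p _ => ?_
          ring
      _ = 1 / (N : ℝ) * ((∑ p, w p) * Real.log ((2 : ℝ)⁻¹ ^ N))
            + 1 / (N : ℝ) * ∑ p, w p * Real.log (Z β (lam p) U) := by
          rw [Finset.sum_add_distrib, ← Finset.mul_sum, ← Finset.mul_sum, Finset.sum_mul]
      _ = _ := by rw [hw1]; ring
  rw [h2]
  have hN : 0 ≤ 1 / (N : ℝ) := by positivity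
  exact mul_le_mul_of_nonneg_left (by linarith) hN

/-- Monotonicity of the pressure in the spectrum. -/
lemma pressure_mono {β : ℝ} (hβ : 0 ≤ β) {lam lam' : Fin N → ℝ} (h : ∀ k, lam k ≤ lam' k)
    (U : Matrix (Fin N) (Fin N) ℝ) : pressure β lam U ≤ pressure β lam' U := by
  simp only [pressure_eq]
  have hN : 0 ≤ 1 / (N : ℝ) := by positivity
  refine mul_le_mul_of_nonneg_left ?_ hN
  have : Z β lam U ≤ Z β lam' U := by
    unfold Z
    refine Finset.sum_le_sum fun s _ => Real.exp_le_exp.2 ?_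
    refine mul_le_mul_of_nonneg_left ?_ (by positivity)
    exact Finset.sum_le_sum fun k _ => mul_le_mul_of_nonneg_right (h k) (by positivity)
  have := Real.log_le_log (Z_pos β lam U) this
  linarith

/-- Shifting the spectrum by a constant. -/
lemma pressure_shift (hN : 0 < N) (β c : ℝ) (lam : Fin N → ℝ)
    (U : Matrix.orthogonalGroup (Fin N) ℝ) :
    pressure β (fun k => lam k + c) U.1 = pressure β lam U.1 + β * c / 2 := by
  simp only [pressure_eq]
  have hZ : Z β (fun k => lam k + c) U.1 = Real.exp (β / 2 * (c * N)) * Z β lam U.1 := by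
    unfold Z
    rw [Finset.mul_sum]
    refine Finset.sum_congr rfl fun s _ => ?_
    rw [← Real.exp_add]
    congr 1
    have := sum_sq_spin U s
    simp only [add_mul, Finset.sum_add_distrib, ← Finset.mul_sum, this]
    ring
  rw [hZ, Real.log_mul (Real.exp_pos _).ne' (Z_pos β lam U.1).ne', Real.log_exp]
  have : (N : ℝ) ≠ 0 := by exact_mod_cast hN.ne'
  field_simp
  ring

/-- Permutation matrices as elements of the orthogonal group. -/
noncomputable def permO (π : Equiv.Perm (Fin N)) : Matrix.orthogonalGroup (Fin N) ℝ :=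
  ⟨π.permMatrix ℝ, by
    rw [Matrix.mem_orthogonalGroup_iff, Matrix.transpose_permMatrix, ← Matrix.permMatrix_mul]
    simp⟩

lemma pressure_perm (β : ℝ) (lam : Fin N → ℝ) (π : Equiv.Perm (Fin N))
    (U : Matrix.orthogonalGroup (Fin N) ℝ) :
    pressure β (fun k => lam (π k)) U.1 = pressure β lam (permO π⁻¹ * U).1 := by
  simp only [pressure_eq]
  congr 3
  unfold Z
  refine Finset.sum_congr rfl fun s _ => ?_
  congr 2
  have h1 : ((permO π⁻¹ * U).1 *ᵥ spin s) = (U.1 *ᵥ spin s) ∘ (π⁻¹ : Equiv.Perm (Fin N)) := by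
    change ((π⁻¹ : Equiv.Perm (Fin N)).permMatrix ℝ * U.1) *ᵥ spin s = _
    rw [← Matrix.mulVec_mulVec, Matrix.permMatrix_mulVec]
  rw [h1]
  rw [← Equiv.sum_comp π (fun k => lam k * ((U.1 *ᵥ spin s) ∘ (π⁻¹ : Equiv.Perm (Fin N))) k ^ 2)]
  simp

instance instCompactSpaceO : CompactSpace (Matrix.orthogonalGroup (Fin N) ℝ) := by
  have hcl : IsClosed (Matrix.orthogonalGroup (Fin N) ℝ : Set (Matrix (Fin N) (Fin N) ℝ)) :=
    isClosed_unitary
  have hK : IsCompact (Set.pi Set.univ
      (fun _ : Fin N => Set.pi Set.univ (fun _ : Fin N => Set.Icc (-1 : ℝ) 1))) :=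
    isCompact_univ_pi fun _ => isCompact_univ_pi fun _ => isCompact_Icc
  have : IsCompact (Matrix.orthogonalGroup (Fin N) ℝ : Set (Matrix (Fin N) (Fin N) ℝ)) := by
    refine IsCompact.of_isClosed_subset hK hcl ?_
    intro U hU i _ j _
    have := entry_norm_bound_of_unitary hU i j
    rw [Real.norm_eq_abs, abs_le] at this
    exact this
  exact isCompact_iff_compactSpace.1 this

lemma continuous_pressure (β : ℝ) (lam : Fin N → ℝ) :
    Continuous (fun U : Matrix.orthogonalGroup (Fin N) ℝ => pressure β lam U.1) := by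
  simp only [pressure_eq]
  refine continuous_const.mul (continuous_const.add ?_)
  refine Continuous.log ?_ (fun U => (Z_pos β lam U.1).ne')
  unfold Z
  fun_prop


section mean

variable [MeasurableSpace (Matrix.orthogonalGroup (Fin N) ℝ)]
  [BorelSpace (Matrix.orthogonalGroup (Fin N) ℝ)]
  (ν : Measure (Matrix.orthogonalGroup (Fin N) ℝ)) [IsProbabilityMeasure ν]

lemma integrable_pressure (β : ℝ) (lam : Fin N → ℝ) :
    Integrable (fun U : Matrix.orthogonalGroup (Fin N) ℝ => pressure β lam U.1) ν :=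
  (continuous_pressure β lam).integrable_of_hasCompactSupport
    (HasCompactSupport.of_compactSpace _)

lemma meanPressure_mono {β : ℝ} (hβ : 0 ≤ β) {lam lam' : Fin N → ℝ} (h : ∀ k, lam k ≤ lam' k) :
    meanPressure ν β lam ≤ meanPressure ν β lam' :=
  integral_mono (integrable_pressure ν β lam) (integrable_pressure ν β lam')
    (fun U => pressure_mono hβ h U.1)

lemma meanPressure_shift (hN : 0 < N) (β c : ℝ) (lam : Fin N → ℝ) :
    meanPressure ν β (fun k => lam k + c) = meanPressure ν β lam + β * c / 2 := by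
  unfold meanPressure
  simp only [pressure_shift hN]
  rw [integral_add (integrable_pressure ν β lam) (integrable_const _)]
  simp

lemma meanPressure_jensen {ι : Type} [Fintype ι] (w : ι → ℝ) (hw0 : ∀ p, 0 ≤ w p)
    (hw1 : ∑ p, w p = 1) (β : ℝ) (lam : ι → Fin N → ℝ) :
    meanPressure ν β (fun k => ∑ p, w p * lam p k) ≤ ∑ p, w p * meanPressure ν β (lam p) := by
  unfold meanPressure
  have h1 : ∑ p, w p * ∫ U, pressure β (lam p) U.1 ∂ν
      = ∫ U, ∑ p, w p * pressure β (lam p) U.1 ∂ν := by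
    rw [integral_finsetSum _ (fun p _ => (integrable_pressure ν β (lam p)).const_mul (w p))]
    simp only [integral_const_mul]
  rw [h1]
  refine integral_mono (integrable_pressure ν β _) ?_ (fun U => pressure_jensen w hw0 hw1 β lam U.1)
  exact integrable_finsetSum _ (fun p _ => (integrable_pressure ν β (lam p)).const_mul (w p))

variable [ν.IsMulLeftInvariant]

omit [IsProbabilityMeasure ν] in
lemma meanPressure_perm (β : ℝ) (lam : Fin N → ℝ) (π : Equiv.Perm (Fin N)) :
    meanPressure ν β (fun k => lam (π k)) = meanPressure ν β lam := by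
  unfold meanPressure
  simp only [pressure_perm]
  exact integral_mul_left_eq_self (fun U : Matrix.orthogonalGroup (Fin N) ℝ => pressure β lam U.1)
    (permO π⁻¹)

/-- The expected pressure is monotone for weak submajorization: if `lam' ≤ D lam` coordinatewise
for a doubly stochastic matrix `D`, then the expected pressure of `lam'` is at most that of `lam`. -/
theorem meanPressure_le_of_le_doublyStochastic {β : ℝ} (hβ : 0 ≤ β) {lam lam' : Fin N → ℝ}
    {D : Matrix (Fin N) (Fin N) ℝ} (hD : D ∈ doublyStochastic ℝ (Fin N))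
    (h : ∀ k, lam' k ≤ (D *ᵥ lam) k) :
    meanPressure ν β lam' ≤ meanPressure ν β lam := by
  obtain ⟨w, hw0, hw1, hw⟩ := exists_eq_sum_perm_of_mem_doublyStochastic hD
  have hDl : ∀ k, (D *ᵥ lam) k = ∑ π : Equiv.Perm (Fin N), w π * lam (π k) := by
    intro k
    rw [← hw, Matrix.sum_mulVec, Finset.sum_apply]
    refine Finset.sum_congr rfl fun π _ => ?_
    rw [Matrix.smul_mulVec, Matrix.permMatrix_mulVec]
    simp
  calc meanPressure ν β lam' ≤ meanPressure ν β (fun k => ∑ π : Equiv.Perm (Fin N), w π * lam (π k)) :=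
        meanPressure_mono ν hβ (fun k => (h k).trans (hDl k).le)
    _ ≤ ∑ π : Equiv.Perm (Fin N), w π * meanPressure ν β (fun k => lam (π k)) :=
        meanPressure_jensen ν w hw0 hw1 β (fun π k => lam (π k))
    _ = ∑ π : Equiv.Perm (Fin N), w π * meanPressure ν β lam := by
        simp only [meanPressure_perm]
    _ = meanPressure ν β lam := by rw [← Finset.sum_mul, hw1, one_mul]

end mean

end Vale.Agent.Lib.P166
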