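import Vale.Agent.Lib.P166.Basic

/-!
# P166: block averaging and the finite comparison lemma
-/

namespace Vale.Agent.Lib.P166

open Matrix MeasureTheory Finset

variable {N : ℕ}

/-- The doubly stochastic matrix which averages the coordinates in `S` and fixes the others. -/
noncomputable def blockAvg (S : Finset (Fin N)) : Matrix (Fin N) (Fin N) ℝ :=
  fun i j => if i ∈ S then (if j ∈ S then 1 / (S.card : ℝ) else 0) else (if i = j then 1 else 0)

lemma blockAvg_mem {S : Finset (Fin N)} (hS : S.Nonempty) :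
    blockAvg S ∈ doublyStochastic ℝ (Fin N) := by
  have hc : (S.card : ℝ) ≠ 0 := by exact_mod_cast (card_pos.2 hS).ne'
  rw [mem_doublyStochastic_iff_sum]
  refine ⟨?_, ?_, ?_⟩
  · intro i j
    unfold blockAvg
    split_ifs <;> positivity
  · intro i
    unfold blockAvg
    by_cases hi : i ∈ S
    · simp only [hi, if_true]
      rw [← sum_filter, sum_const, filter_mem_eq_inter, univ_inter, nsmul_eq_mul]
      field_simp
    · simp [hi]
  · intro j
    unfold blockAvg
    by_cases hj : j ∈ S
    · have : ∀ i, (if i ∈ S then (if j ∈ S then 1 / (S.card : ℝ) else 0)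
          else (if i = j then 1 else 0)) = if i ∈ S then 1 / (S.card : ℝ) else 0 := by
        intro i
        by_cases hi : i ∈ S
        · simp [hi, hj]
        · have : i ≠ j := fun h => hi (h ▸ hj)
          simp [hi, this]
      simp only [this]
      rw [← sum_filter, sum_const, filter_mem_eq_inter, univ_inter, nsmul_eq_mul]
      field_simp
    · have : ∀ i, (if i ∈ S then (if j ∈ S then 1 / (S.card : ℝ) else 0)
          else (if i = j then 1 else 0)) = if i = j then 1 else 0 := by
        intro i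
        by_cases hi : i ∈ S
        · have : i ≠ j := fun h => hj (h ▸ hi)
          simp [hi, hj, this]
        · simp [hi]
      simp only [this]
      simp

lemma blockAvg_mulVec (S : Finset (Fin N)) (x : Fin N → ℝ) (i : Fin N) :
    (blockAvg S *ᵥ x) i = if i ∈ S then (∑ j ∈ S, x j) / (S.card : ℝ) else x i := by
  unfold blockAvg Matrix.mulVec dotProduct
  by_cases hi : i ∈ S
  · simp only [hi, if_true, ite_mul, zero_mul]
    rw [← sum_filter, filter_mem_eq_inter, univ_inter, sum_div]
    refine sum_congr rfl fun j _ => ?_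
    ring
  · simp [hi]

section mean

variable [MeasurableSpace (Matrix.orthogonalGroup (Fin N) ℝ)]
  [BorelSpace (Matrix.orthogonalGroup (Fin N) ℝ)]
  (ν : Measure (Matrix.orthogonalGroup (Fin N) ℝ)) [IsProbabilityMeasure ν]
  [ν.IsMulLeftInvariant]

/-- Comparison through one block average and a constant shift. -/
lemma meanPressure_le_block (hN : 0 < N) {β : ℝ} (hβ : 0 ≤ β) {lam lam' : Fin N → ℝ}
    {S : Finset (Fin N)} (hS : S.Nonempty) (c : ℝ)
    (h1 : ∀ i, i ∉ S → lam' i ≤ lam i + c)
    (h2 : ∀ i, i ∈ S → lam' i ≤ (∑ j ∈ S, lam j) / (S.card : ℝ) + c) :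
    meanPressure ν β lam' ≤ meanPressure ν β lam + β * c / 2 := by
  rw [← meanPressure_shift ν hN]
  refine meanPressure_le_of_le_doublyStochastic ν hβ (blockAvg_mem hS) ?_
  intro k
  rw [blockAvg_mulVec]
  have hc : (S.card : ℝ) ≠ 0 := by exact_mod_cast (card_pos.2 hS).ne'
  by_cases hk : k ∈ S
  · simp only [hk, if_true]
    rw [sum_add_distrib, sum_const, nsmul_eq_mul, add_div, mul_div_cancel_left₀ _ hc]
    exact h2 k hk
  · simp only [hk, if_false]
    exact h1 k hk

/-- The quantitative comparison lemma. -/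
lemma meanPressure_le_of_sets (hN : 0 < N) {β : ℝ} (hβ : 0 ≤ β) {lam lam' : Fin N → ℝ}
    {b η L : ℝ} (hη : 0 ≤ η) (hL : 0 ≤ L) {T R : Finset (Fin N)} (hT : T.Nonempty)
    (h1 : ∀ i, lam' i ≤ b + η) (h2 : ∀ i ∈ T, b - η ≤ lam i) (h3 : ∀ i, b - L ≤ lam i)
    (h4 : ∀ i, i ∉ R → lam' i ≤ lam i + η) :
    meanPressure ν β lam' ≤
      meanPressure ν β lam + β * (2 * η + L * (R.card : ℝ) / (T.card : ℝ)) / 2 := by
  have hTc : (0 : ℝ) < (T.card : ℝ) := by exact_mod_cast card_pos.2 hT
  have hq : 0 ≤ L * (R.card : ℝ) / (T.card : ℝ) := by positivity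
  refine meanPressure_le_block ν hN hβ (S := T ∪ R) (hT.mono subset_union_left) _ ?_ ?_
  · intro i hi
    have hiR : i ∉ R := fun h => hi (mem_union_right _ h)
    have := h4 i hiR
    linarith
  · intro i _
    have hSc : (0 : ℝ) < ((T ∪ R).card : ℝ) := by
      exact_mod_cast card_pos.2 (hT.mono subset_union_left)
    have hTS : (T.card : ℝ) ≤ ((T ∪ R).card : ℝ) := by
      exact_mod_cast card_le_card subset_union_left
    -- lower bound for the block sum
    have hsum : ((T ∪ R).card : ℝ) * (b - η) - (R.card : ℝ) * L ≤ ∑ j ∈ T ∪ R, lam j := by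
      have hdec : T ∪ R = T ∪ (R \ T) := by
        ext x; simp only [mem_union, mem_sdiff]; tauto
      have hdisj : Disjoint T (R \ T) := disjoint_sdiff
      rw [hdec, sum_union hdisj, card_union_of_disjoint hdisj]
      have e1 : (T.card : ℝ) * (b - η) ≤ ∑ j ∈ T, lam j := by
        have := card_nsmul_le_sum T lam (b - η) h2
        simpa [nsmul_eq_mul] using this
      have e2 : ((R \ T).card : ℝ) * (b - L) ≤ ∑ j ∈ R \ T, lam j := by
        have := card_nsmul_le_sum (R \ T) lam (b - L) (fun j _ => h3 j)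
        simpa [nsmul_eq_mul] using this
      have e3 : ((R \ T).card : ℝ) ≤ (R.card : ℝ) := by
        exact_mod_cast card_le_card sdiff_subset
      have e4 : (0 : ℝ) ≤ ((R \ T).card : ℝ) := by positivity
      push_cast
      nlinarith
    have hmean : b - η - L * (R.card : ℝ) / (T.card : ℝ) ≤
        (∑ j ∈ T ∪ R, lam j) / ((T ∪ R).card : ℝ) := by
      rw [le_div_iff₀ hSc]
      have e5 : L * (R.card : ℝ) / (T.card : ℝ) * ((T ∪ R).card : ℝ) ≥ L * (R.card : ℝ) := by
        rw [ge_iff_le, div_mul_eq_mul_div, le_div_iff₀ hTc]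
        have : 0 ≤ L * (R.card : ℝ) := by positivity
        nlinarith
      nlinarith
    have := h1 i
    linarith

end mean

end Vale.Agent.Lib.P166
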