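import Mathlib

/-!
# P166: the pressure of an orthogonally invariant Ising spin glass

Conventions of the problem file: `J = Uᵀ Λ U`, `Λ = diag(lam)`, uniform spin prior, diagonal terms
included, no external field.
-/

namespace Vale.Agent.Lib.P166

open Matrix MeasureTheory

/-- The spin vector in `{-1,1}^N` attached to a Boolean configuration. -/
def spin {N : ℕ} (s : Fin N → Bool) : Fin N → ℝ := fun i => if s i then 1 else -1

/-- The coupling matrix `J = Uᵀ Λ U` with `Λ = diag(lam)`. -/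
def coupling {N : ℕ} (lam : Fin N → ℝ) (U : Matrix (Fin N) (Fin N) ℝ) :
    Matrix (Fin N) (Fin N) ℝ :=
  Uᵀ * Matrix.diagonal lam * U

/-- The pressure
`P_N(β) = (1/N) log [ 2^(-N) ∑_{σ ∈ {-1,1}^N} exp((β/2) σᵀ J σ) ]`, `J = Uᵀ diag(lam) U`. -/
noncomputable def pressure {N : ℕ} (β : ℝ) (lam : Fin N → ℝ) (U : Matrix (Fin N) (Fin N) ℝ) : ℝ :=
  (1 / (N : ℝ)) * Real.log ((2 : ℝ)⁻¹ ^ N *
    ∑ s : Fin N → Bool, Real.exp (β / 2 * (spin s ⬝ᵥ (coupling lam U *ᵥ spin s))))

/-- The expected pressure when `U` has law `ν` on the orthogonal group `O(N)`. -/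
noncomputable def meanPressure {N : ℕ} [MeasurableSpace (Matrix.orthogonalGroup (Fin N) ℝ)]
    (ν : Measure (Matrix.orthogonalGroup (Fin N) ℝ)) (β : ℝ) (lam : Fin N → ℝ) : ℝ :=
  ∫ U, pressure β lam U.1 ∂ν

end Vale.Agent.Lib.P166
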