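import Vale.Agent.Lib.P166.Block

/-!
# P166: counting lemmas for sorted spectra
-/

namespace Vale.Agent.Lib.P166

open Finset

variable {N : ℕ}

/-- number of entries at most `y` -/
noncomputable def cnt (x : Fin N → ℝ) (y : ℝ) : ℕ := (univ.filter (fun k => x k ≤ y)).card

lemma cnt_perm (x : Fin N → ℝ) (π : Equiv.Perm (Fin N)) (y : ℝ) :
    cnt (fun k => x (π k)) y = cnt x y := by
  unfold cnt
  exact card_equiv π (by simp)

lemma lt_cnt_of_le {x : Fin N → ℝ} (hx : Monotone x) {i : Fin N} {y : ℝ} (h : x i ≤ y) :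
    i.val < cnt x y := by
  unfold cnt
  have hsub : Finset.Iic i ⊆ univ.filter (fun k => x k ≤ y) := by
    intro k hk
    rw [mem_Iic] at hk
    exact mem_filter.2 ⟨mem_univ _, (hx hk).trans h⟩
  have := card_le_card hsub
  rw [Fin.card_Iic] at this
  omega

lemma cnt_le_of_lt {x : Fin N → ℝ} (hx : Monotone x) {i : Fin N} {y : ℝ} (h : y < x i) :
    cnt x y ≤ i.val := by
  unfold cnt
  have hsub : univ.filter (fun k => x k ≤ y) ⊆ Finset.Iio i := by
    intro k hk
    rw [mem_filter] at hk
    rw [mem_Iio]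
    by_contra hcon
    push Not at hcon
    have := hx hcon
    linarith [hk.2]
  have := card_le_card hsub
  rw [Fin.card_Iio] at this
  exact this

lemma card_fin_between (a b : ℕ) :
    (univ.filter (fun i : Fin N => a ≤ i.val ∧ i.val < b)).card ≤ b - a := by
  have : ((univ.filter (fun i : Fin N => a ≤ i.val ∧ i.val < b)).image (fun i => i.val)) ⊆
      Finset.Ico a b := by
    intro k hk
    simp only [mem_image, mem_filter, mem_univ, true_and] at hk
    obtain ⟨i, hi, rfl⟩ := hk
    exact mem_Ico.2 hi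
  calc (univ.filter (fun i : Fin N => a ≤ i.val ∧ i.val < b)).card
      = ((univ.filter (fun i : Fin N => a ≤ i.val ∧ i.val < b)).image (fun i => i.val)).card := by
        rw [card_image_of_injective _ Fin.val_injective]
    _ ≤ (Finset.Ico a b).card := card_le_card this
    _ = b - a := Nat.card_Ico a b

/-- For sorted `x`, `x'`: the number of indices where `x'` exceeds `x` by more than `η` is
controlled by the differences of the counting functions on a grid of mesh `η/2`. -/
lemma card_bad_le {x x' : Fin N → ℝ} (hx : Monotone x) (hx' : Monotone x') {η a₀ : ℝ} (hη : 0 < η)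
    (m : ℕ) (hlo : ∀ i, a₀ ≤ x i) (hhi : ∀ i, x i ≤ a₀ + m * (η / 2)) :
    (univ.filter (fun i => x i + η < x' i)).card ≤
      ∑ j ∈ range (m + 1), (cnt x (a₀ + j * (η / 2)) - cnt x' (a₀ + j * (η / 2) + η / 4)) := by
  have hsub : univ.filter (fun i => x i + η < x' i) ⊆
      (range (m + 1)).biUnion (fun j => univ.filter (fun i : Fin N =>
        cnt x' (a₀ + j * (η / 2) + η / 4) ≤ i.val ∧ i.val < cnt x (a₀ + j * (η / 2)))) := by
    intro i hi
    rw [mem_filter] at hi
    have hi2 := hi.2
    set j : ℕ := ⌈(x i - a₀) / (η / 2)⌉₊ with hj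
    have hη2 : 0 < η / 2 := by linarith
    have h0 : 0 ≤ (x i - a₀) / (η / 2) := div_nonneg (by linarith [hlo i]) hη2.le
    have hj1 : (x i - a₀) / (η / 2) ≤ j := Nat.le_ceil _
    have hj2 : (j : ℝ) < (x i - a₀) / (η / 2) + 1 := Nat.ceil_lt_add_one h0
    have hjm : j ≤ m := by
      rw [hj]
      refine Nat.ceil_le.2 ?_
      rw [div_le_iff₀ hη2]
      linarith [hhi i]
    have e1 : x i ≤ a₀ + j * (η / 2) := by
      rw [div_le_iff₀ hη2] at hj1
      linarith
    have e2 : a₀ + j * (η / 2) < x i + η / 2 := by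
      have : (j : ℝ) * (η / 2) < ((x i - a₀) / (η / 2) + 1) * (η / 2) :=
        mul_lt_mul_of_pos_right hj2 hη2
      rw [add_mul, div_mul_cancel₀ _ hη2.ne'] at this
      linarith
    rw [mem_biUnion]
    refine ⟨j, mem_range.2 (by omega), mem_filter.2 ⟨mem_univ _, ?_, ?_⟩⟩
    · exact cnt_le_of_lt hx' (by linarith)
    · exact lt_cnt_of_le hx e1
  calc (univ.filter (fun i => x i + η < x' i)).card
      ≤ ((range (m + 1)).biUnion (fun j => univ.filter (fun i : Fin N =>
        cnt x' (a₀ + j * (η / 2) + η / 4) ≤ i.val ∧ i.val < cnt x (a₀ + j * (η / 2))))).card :=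
        card_le_card hsub
    _ ≤ ∑ j ∈ range (m + 1), (univ.filter (fun i : Fin N =>
        cnt x' (a₀ + j * (η / 2) + η / 4) ≤ i.val ∧ i.val < cnt x (a₀ + j * (η / 2)))).card :=
        card_biUnion_le
    _ ≤ _ := sum_le_sum fun j _ => card_fin_between _ _


section mean

open MeasureTheory

variable [MeasurableSpace (Matrix.orthogonalGroup (Fin N) ℝ)]
  [BorelSpace (Matrix.orthogonalGroup (Fin N) ℝ)]
  (ν : Measure (Matrix.orthogonalGroup (Fin N) ℝ)) [IsProbabilityMeasure ν]
  [ν.IsMulLeftInvariant]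

/-- The finite-`N` comparison, with hypotheses that only involve counting functions. -/
lemma meanPressure_le_finite (hN : 0 < N) {β : ℝ} (hβ : 0 ≤ β) {lam lam' : Fin N → ℝ}
    {b η L θ p : ℝ} (hη : 0 < η) (hL : 0 ≤ L) (hθ : 0 ≤ θ) (hp : 0 < p) (m : ℕ)
    (ha : ∀ i, lam' i ≤ b + η)
    (hb : p * N ≤ ((univ.filter (fun i => b - η ≤ lam i)).card : ℝ))
    (hc : ∀ i, b - L ≤ lam i)
    (hd : ∀ i, lam i ≤ (b - L) + m * (η / 2))
    (he : ∀ j ∈ range (m + 1), (cnt lam ((b - L) + j * (η / 2)) : ℝ) ≤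
      cnt lam' ((b - L) + j * (η / 2) + η / 4) + θ * N) :
    meanPressure ν β lam' ≤ meanPressure ν β lam + β * (2 * η + L * ((m + 1) * θ) / p) / 2 := by
  set π := Tuple.sort lam with hπ
  set π' := Tuple.sort lam' with hπ'
  set x : Fin N → ℝ := fun k => lam (π k) with hx
  set x' : Fin N → ℝ := fun k => lam' (π' k) with hx'
  have hxm : Monotone x := Tuple.monotone_sort lam
  have hxm' : Monotone x' := Tuple.monotone_sort lam'
  have hNr : (0 : ℝ) < N := by exact_mod_cast hN
  rw [← meanPressure_perm ν β lam π, ← meanPressure_perm ν β lam' π']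
  set T := univ.filter (fun i => b - η ≤ x i) with hT
  set R := univ.filter (fun i => x i + η < x' i) with hR
  have hTcard : T.card = (univ.filter (fun i => b - η ≤ lam i)).card :=
    card_equiv π (by simp [hT, hx])
  have hTpos : (0 : ℝ) < (T.card : ℝ) := by
    rw [hTcard]
    exact lt_of_lt_of_le (by positivity) hb
  have hTne : T.Nonempty := by
    rw [← card_pos]
    exact_mod_cast hTpos
  have hRcard : (R.card : ℝ) ≤ (m + 1) * θ * N := by
    have h1 := card_bad_le hxm hxm' hη m (fun i => hc (π i)) (fun i => hd (π i))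
    have h2 : ((∑ j ∈ range (m + 1), (cnt x ((b - L) + j * (η / 2))
        - cnt x' ((b - L) + j * (η / 2) + η / 4)) : ℕ) : ℝ) ≤ ∑ _j ∈ range (m + 1), θ * N := by
      push_cast
      refine sum_le_sum fun j hj => ?_
      have h3 := he j hj
      rw [hx, hx', cnt_perm, cnt_perm]
      have hθN : 0 ≤ θ * N := by positivity
      by_cases hle : cnt lam ((b - L) + j * (η / 2)) ≤ cnt lam' ((b - L) + j * (η / 2) + η / 4)
      · rw [Nat.sub_eq_zero_of_le hle]
        simpa using hθN
      · push Not at hle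
        rw [Nat.cast_sub hle.le]
        linarith
    have h4 : (R.card : ℝ) ≤ ((∑ j ∈ range (m + 1), (cnt x ((b - L) + j * (η / 2))
        - cnt x' ((b - L) + j * (η / 2) + η / 4)) : ℕ) : ℝ) := by
      exact_mod_cast h1
    refine h4.trans (h2.trans (le_of_eq ?_))
    rw [sum_const, card_range, nsmul_eq_mul]
    push_cast
    ring
  have key := meanPressure_le_of_sets ν hN hβ (lam := x) (lam' := x') (b := b) (η := η) (L := L)
    hη.le hL (T := T) (R := R) hTne (fun i => ha (π' i))
    (fun i hi => (mem_filter.1 hi).2) (fun i => hc (π i))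
    (fun i hi => by
      have : ¬ (x i + η < x' i) := fun h => hi (mem_filter.2 ⟨mem_univ _, h⟩)
      exact not_lt.1 this)
  refine key.trans ?_
  have hfrac : L * (R.card : ℝ) / (T.card : ℝ) ≤ L * ((m + 1) * θ) / p := by
    rw [div_le_div_iff₀ hTpos hp]
    have hTge : p * N ≤ (T.card : ℝ) := by rw [hTcard]; exact hb
    have hmθ : 0 ≤ ((m : ℝ) + 1) * θ := by positivity
    calc L * (R.card : ℝ) * p ≤ L * ((m + 1) * θ * N) * p := by
          refine mul_le_mul_of_nonneg_right (mul_le_mul_of_nonneg_left hRcard hL) hp.le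
      _ = L * ((m + 1) * θ) * (p * N) := by ring
      _ ≤ L * ((m + 1) * θ) * (T.card : ℝ) :=
          mul_le_mul_of_nonneg_left hTge (by positivity)
  have : β * (2 * η + L * (R.card : ℝ) / (T.card : ℝ)) / 2
      ≤ β * (2 * η + L * ((m + 1) * θ) / p) / 2 := by
    have := mul_le_mul_of_nonneg_left hfrac hβ
    linarith
  linarith

end mean

end Vale.Agent.Lib.P166
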