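import Vale.Agent.Lib.P166.Sorted
import Vale.Agent.Lib.P166.Admissible

/-!
# P166: asymptotic universality of the expected pressure
-/

namespace Vale.Agent.Lib.P166

open MeasureTheory Filter Topology Finset

/-- ramp going down from `1` (for `x ≤ y`) to `0` (for `x ≥ y + δ`) -/
noncomputable def rampDown (y δ : ℝ) (x : ℝ) : ℝ := max 0 (min 1 (1 - (x - y) / δ))

lemma continuous_rampDown (y δ : ℝ) : Continuous (rampDown y δ) := by
  unfold rampDown
  fun_prop

lemma rampDown_nonneg (y δ x : ℝ) : 0 ≤ rampDown y δ x := le_max_left _ _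

lemma rampDown_le_one (y δ x : ℝ) : rampDown y δ x ≤ 1 :=
  max_le zero_le_one (min_le_left _ _)

lemma rampDown_bdd (y δ : ℝ) : ∃ C : ℝ, ∀ x, |rampDown y δ x| ≤ C :=
  ⟨1, fun x => by rw [abs_of_nonneg (rampDown_nonneg y δ x)]; exact rampDown_le_one y δ x⟩

lemma rampDown_eq_one {y δ x : ℝ} (hδ : 0 < δ) (h : x ≤ y) : rampDown y δ x = 1 := by
  unfold rampDown
  have : 1 ≤ 1 - (x - y) / δ := by
    have : (x - y) / δ ≤ 0 := div_nonpos_of_nonpos_of_nonneg (by linarith) hδ.le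
    linarith
  rw [min_eq_left this]
  exact max_eq_right zero_le_one

lemma rampDown_eq_zero {y δ x : ℝ} (hδ : 0 < δ) (h : y + δ < x) : rampDown y δ x = 0 := by
  unfold rampDown
  have : 1 - (x - y) / δ ≤ 0 := by
    have : 1 ≤ (x - y) / δ := by rw [le_div_iff₀ hδ]; linarith
    linarith
  exact max_eq_left ((min_le_right _ _).trans this)

variable {N : ℕ}

lemma cnt_le_sum_rampDown (x : Fin N → ℝ) {y δ : ℝ} (hδ : 0 < δ) :
    (cnt x y : ℝ) ≤ ∑ k, rampDown y δ (x k) := by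
  unfold cnt
  rw [card_eq_sum_ones, sum_filter]
  push_cast
  refine sum_le_sum fun k _ => ?_
  split_ifs with h
  · rw [rampDown_eq_one hδ h]
  · exact rampDown_nonneg _ _ _

lemma sum_rampDown_le_cnt (x : Fin N → ℝ) {y δ : ℝ} (hδ : 0 < δ) :
    ∑ k, rampDown y δ (x k) ≤ (cnt x (y + δ) : ℝ) := by
  unfold cnt
  rw [card_eq_sum_ones, sum_filter]
  push_cast
  refine sum_le_sum fun k _ => ?_
  split_ifs with h
  · exact rampDown_le_one _ _ _
  · rw [rampDown_eq_zero hδ (not_le.1 h)]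

/-- ramp going up from `0` (for `x ≤ y`) to `1` (for `x ≥ y + δ`) -/
noncomputable def rampUp (y δ : ℝ) (x : ℝ) : ℝ := max 0 (min 1 ((x - y) / δ))

lemma continuous_rampUp (y δ : ℝ) : Continuous (rampUp y δ) := by
  unfold rampUp
  fun_prop

lemma rampUp_nonneg (y δ x : ℝ) : 0 ≤ rampUp y δ x := le_max_left _ _

lemma rampUp_le_one (y δ x : ℝ) : rampUp y δ x ≤ 1 :=
  max_le zero_le_one (min_le_left _ _)

lemma rampUp_bdd (y δ : ℝ) : ∃ C : ℝ, ∀ x, |rampUp y δ x| ≤ C :=
  ⟨1, fun x => by rw [abs_of_nonneg (rampUp_nonneg y δ x)]; exact rampUp_le_one y δ x⟩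

lemma rampUp_eq_zero {y δ x : ℝ} (hδ : 0 < δ) (h : x < y) : rampUp y δ x = 0 := by
  unfold rampUp
  have : (x - y) / δ ≤ 0 := div_nonpos_of_nonpos_of_nonneg (by linarith) hδ.le
  exact max_eq_left ((min_le_right _ _).trans this)

lemma rampUp_pos {y δ x : ℝ} (hδ : 0 < δ) (h : y < x) : 0 < rampUp y δ x := by
  unfold rampUp
  have : 0 < (x - y) / δ := div_pos (by linarith) hδ
  exact lt_max_of_lt_right (lt_min one_pos this)

lemma sum_rampUp_le_card (x : Fin N → ℝ) {y δ : ℝ} (hδ : 0 < δ) :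
    ∑ k, rampUp y δ (x k) ≤ ((univ.filter (fun i => y ≤ x i)).card : ℝ) := by
  rw [card_eq_sum_ones, sum_filter]
  push_cast
  refine sum_le_sum fun k _ => ?_
  split_ifs with h
  · exact rampUp_le_one _ _ _
  · rw [rampUp_eq_zero hδ (not_le.1 h)]

lemma integral_rampUp_pos (μ : Measure ℝ) [IsProbabilityMeasure μ] {b y δ : ℝ} (hδ : 0 < δ)
    (hb : b ∈ μ.support) (hy : y < b) : 0 < ∫ x, rampUp y δ x ∂μ := by
  have hint : Integrable (rampUp y δ) μ := by
    refine Integrable.of_bound (continuous_rampUp y δ).aestronglyMeasurable 1 ?_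
    refine Eventually.of_forall fun x => ?_
    rw [Real.norm_eq_abs, abs_of_nonneg (rampUp_nonneg y δ x)]
    exact rampUp_le_one y δ x
  rw [integral_pos_iff_support_of_nonneg (fun x => rampUp_nonneg y δ x) hint]
  have h1 : Set.Ioi y ⊆ Function.support (rampUp y δ) := by
    intro x hx
    exact (rampUp_pos hδ hx).ne'
  have h2 : 0 < μ (Set.Ioi y) :=
    (Measure.mem_support_iff_forall b).1 hb _ (Ioi_mem_nhds hy)
  exact lt_of_lt_of_le h2 (measure_mono h1)


section asymptotic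

variable [∀ N : ℕ, MeasurableSpace (Matrix.orthogonalGroup (Fin N) ℝ)]
  [∀ N : ℕ, BorelSpace (Matrix.orthogonalGroup (Fin N) ℝ)]
  (ν : ∀ N : ℕ, Measure (Matrix.orthogonalGroup (Fin N) ℝ))
  [∀ N : ℕ, IsProbabilityMeasure (ν N)] [∀ N : ℕ, (ν N).IsMulLeftInvariant]

omit [∀ N : ℕ, MeasurableSpace (Matrix.orthogonalGroup (Fin N) ℝ)]
  [∀ N : ℕ, BorelSpace (Matrix.orthogonalGroup (Fin N) ℝ)] in
lemma eventually_le_of_iSup_tendsto {lam : ∀ N : ℕ, Fin N → ℝ} {b : ℝ}
    (h : Tendsto (fun N : ℕ => ⨆ i, lam N i) atTop (𝓝 b)) {c : ℝ} (hc : b < c) :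
    ∀ᶠ N : ℕ in atTop, ∀ i, lam N i ≤ c := by
  filter_upwards [h.eventually (gt_mem_nhds hc)] with N hN i
  exact (le_ciSup (Set.finite_range (lam N)).bddAbove i).trans hN.le

omit [∀ N : ℕ, MeasurableSpace (Matrix.orthogonalGroup (Fin N) ℝ)]
  [∀ N : ℕ, BorelSpace (Matrix.orthogonalGroup (Fin N) ℝ)] in
lemma eventually_ge_of_iInf_tendsto {lam : ∀ N : ℕ, Fin N → ℝ} {a : ℝ}
    (h : Tendsto (fun N : ℕ => ⨅ i, lam N i) atTop (𝓝 a)) {c : ℝ} (hc : c < a) :
    ∀ᶠ N : ℕ in atTop, ∀ i, c ≤ lam N i := by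
  filter_upwards [h.eventually (lt_mem_nhds hc)] with N hN i
  exact hN.le.trans (ciInf_le (Set.finite_range (lam N)).bddBelow i)

lemma one_sided (μ : Measure ℝ) [IsProbabilityMeasure μ] (hμ : IsCompact μ.support)
    {lam lam' : ∀ N : ℕ, Fin N → ℝ} (h : Admissible μ lam) (h' : Admissible μ lam')
    {β : ℝ} (hβ : 0 ≤ β) {τ : ℝ} (hτ : 0 < τ) :
    ∀ᶠ N : ℕ in atTop,
      meanPressure (ν N) β (lam' N) ≤ meanPressure (ν N) β (lam N) + τ := by
  obtain ⟨hw, hmin, hmax⟩ := h
  obtain ⟨hw', _, hmax'⟩ := h'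
  have hne : μ.support.Nonempty := Measure.nonempty_support (IsProbabilityMeasure.ne_zero μ)
  set b := sSup μ.support with hb
  set a := sInf μ.support with ha
  have hbmem : b ∈ μ.support := hμ.sSup_mem hne
  have hab : a ≤ b := csInf_le_csSup hne hμ.bddBelow hμ.bddAbove
  set L : ℝ := b - a + 1 with hL
  have hLpos : 0 < L := by linarith
  set η : ℝ := τ / (2 * (β + 1)) with hη
  have hηpos : 0 < η := by positivity
  set m : ℕ := ⌈(L + 1) / (η / 2)⌉₊ with hm
  have hη2 : 0 < η / 2 := by linarith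
  have hmge : L + 1 ≤ m * (η / 2) := by
    have := Nat.le_ceil ((L + 1) / (η / 2))
    rw [div_le_iff₀ hη2] at this
    exact this
  set I : ℝ := ∫ x, rampUp (b - η) (η / 2) x ∂μ with hI
  have hIpos : 0 < I := integral_rampUp_pos μ hη2 hbmem (by linarith)
  set p : ℝ := I / 2 with hp
  have hppos : 0 < p := by positivity
  set θ : ℝ := η * p / (L * (m + 1)) with hθ
  have hθpos : 0 < θ := by positivity
  -- eventual facts
  have e1 : ∀ᶠ N : ℕ in atTop, ∀ i, lam' N i ≤ b + η :=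
    eventually_le_of_iSup_tendsto hmax' (by linarith)
  have e2 : ∀ᶠ N : ℕ in atTop, ∀ i, lam N i ≤ b + 1 :=
    eventually_le_of_iSup_tendsto hmax (by linarith)
  have e3 : ∀ᶠ N : ℕ in atTop, ∀ i, b - L ≤ lam N i :=
    eventually_ge_of_iInf_tendsto hmin (by linarith)
  have e4 : ∀ᶠ N : ℕ in atTop, p < (∑ i, rampUp (b - η) (η / 2) (lam N i)) / (N : ℝ) :=
    (hw _ (continuous_rampUp _ _) (rampUp_bdd _ _)).eventually (lt_mem_nhds (by linarith))
  have e5 : ∀ᶠ N : ℕ in atTop, ∀ j ∈ range (m + 1),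
      (∑ i, rampDown ((b - L) + j * (η / 2)) (η / 4) (lam N i)) / (N : ℝ)
        - (∑ i, rampDown ((b - L) + j * (η / 2)) (η / 4) (lam' N i)) / (N : ℝ) < θ := by
    rw [eventually_all_finset]
    intro j _
    have t1 := hw _ (continuous_rampDown ((b - L) + j * (η / 2)) (η / 4)) (rampDown_bdd _ _)
    have t2 := hw' _ (continuous_rampDown ((b - L) + j * (η / 2)) (η / 4)) (rampDown_bdd _ _)
    have t3 := t1.sub t2
    rw [sub_self] at t3
    exact t3.eventually (gt_mem_nhds hθpos)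
  filter_upwards [e1, e2, e3, e4, e5, eventually_gt_atTop 0] with N f1 f2 f3 f4 f5 hN
  have hNr : (0 : ℝ) < N := by exact_mod_cast hN
  have hη4 : 0 < η / 4 := by linarith
  have key := meanPressure_le_finite (ν N) hN hβ (lam := lam N) (lam' := lam' N) (b := b) (η := η)
    (L := L) (θ := θ) (p := p) hηpos hLpos.le hθpos.le hppos m f1 ?_ f3 ?_ ?_
  · refine key.trans ?_
    have hfr : L * ((m + 1) * θ) / p = η := by
      rw [hθ]
      field_simp
    rw [hfr]
    have : β * (2 * η + η) / 2 ≤ τ := by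
      have h1 : β * (2 * η + η) / 2 = (3 / 4) * (β / (β + 1)) * τ := by
        rw [hη]
        field_simp
        ring
      have h2 : β / (β + 1) ≤ 1 := by
        rw [div_le_one (by linarith)]
        linarith
      have h3 : 0 ≤ β / (β + 1) := by positivity
      rw [h1]
      nlinarith
    linarith
  · rw [lt_div_iff₀ hNr] at f4
    exact f4.le.trans (sum_rampUp_le_card (lam N) hη2)
  · intro i
    have := f2 i
    linarith
  · intro j hj
    have g1 := f5 j hj
    rw [← sub_div, div_lt_iff₀ hNr] at g1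
    have g2 := cnt_le_sum_rampDown (lam N) (y := (b - L) + j * (η / 2)) hη4
    have g3 := sum_rampDown_le_cnt (lam' N) (y := (b - L) + j * (η / 2)) hη4
    linarith

/-- Universality: the expected pressures of two admissible sequences of spectra with the same
limit law are asymptotically equal. -/
theorem universality (μ : Measure ℝ) [IsProbabilityMeasure μ] (hμ : IsCompact μ.support)
    {lam lam' : ∀ N : ℕ, Fin N → ℝ} (h : Admissible μ lam) (h' : Admissible μ lam')
    {β : ℝ} (hβ : 0 ≤ β) :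
    Tendsto (fun N : ℕ => meanPressure (ν N) β (lam N) - meanPressure (ν N) β (lam' N))
      atTop (𝓝 0) := by
  rw [Metric.tendsto_nhds]
  intro τ hτ
  have hτ2 : 0 < τ / 2 := by linarith
  filter_upwards [one_sided ν μ hμ h h' hβ hτ2, one_sided ν μ hμ h' h hβ hτ2] with N h1 h2
  rw [Real.dist_eq, sub_zero, abs_lt]
  constructor <;> linarith

end asymptotic

end Vale.Agent.Lib.P166
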